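import Crest.Agent.S0324Aux.Area
import Crest.Agent.S0324Aux.Area2

/-!
WP-H helper lemmas: lifting a sheared square cylinder of `ℝ × E2` to a cylinder of `E3`.
-/

set_option autoImplicit false
open MeasureTheory
open scoped ENNReal

namespace Crest.Agent.S0329Aux

open Crest.Agent.S0324Aux

/-- lift of a plane vector into the plane `x₀ = 0` of `E3`, second coordinate scaled by `h` -/
noncomputable def lift (h : ℝ) (a : E2) : E3 := !₂[0, a 0, h * a 1]

/-- the axis vector -/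
noncomputable def axis (h : ℝ) (g : E2) : E3 := !₂[1, g 0, h * g 1]

noncomputable def ex : E3 := !₂[1, 0, 0]

theorem axis_eq (h : ℝ) (g : E2) : axis h g = ex + lift h g := by
  ext i
  fin_cases i <;> simp [axis, ex, lift]

theorem norm_ex : ‖ex‖ = 1 := by
  simp [ex, EuclideanSpace.norm_eq, Fin.sum_univ_three]

theorem inner_lift_ex (h : ℝ) (a : E2) : inner ℝ (lift h a) ex = 0 := by
  simp [lift, ex, PiLp.inner_apply, Fin.sum_univ_three]

theorem norm_sq_lift (h : ℝ) (a : E2) : ‖lift h a‖ ^ 2 = (a 0) ^ 2 + h ^ 2 * (a 1) ^ 2 := by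
  simp [lift, EuclideanSpace.norm_sq_eq, Fin.sum_univ_three]
  ring

theorem inner_lift_lift (h : ℝ) (a b : E2) :
    inner ℝ (lift h a) (lift h b) = a 0 * b 0 + h ^ 2 * (a 1 * b 1) := by
  simp [lift, PiLp.inner_apply, Fin.sum_univ_three]
  ring

theorem axis_ne_zero (h : ℝ) (g : E2) : axis h g ≠ 0 := by
  intro H
  have := congrFun (congrArg (fun x : E3 => (x : Fin 3 → ℝ)) H) 0
  simp [axis] at this

theorem norm_sq_axis (h : ℝ) (g : E2) : ‖axis h g‖ ^ 2 = 1 + (g 0) ^ 2 + h ^ 2 * (g 1) ^ 2 := by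
  simp [axis, EuclideanSpace.norm_sq_eq, Fin.sum_univ_three]
  ring

theorem gram2_lift (h : ℝ) (a b : E2) (hab : ‖b‖ = ‖a‖) (hperp : inner ℝ a b = 0) :
    gram2 (lift h a) (lift h b) = (h * ‖a‖ ^ 2) ^ 2 := by
  have h1 : ‖a‖ ^ 2 = (a 0) ^ 2 + (a 1) ^ 2 := by
    simp [EuclideanSpace.norm_sq_eq, Fin.sum_univ_two]
  have h2 : ‖b‖ ^ 2 = (b 0) ^ 2 + (b 1) ^ 2 := by
    simp [EuclideanSpace.norm_sq_eq, Fin.sum_univ_two]
  have h3 : a 0 * b 0 + a 1 * b 1 = 0 := by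
    have := hperp
    simp [PiLp.inner_apply, Fin.sum_univ_two] at this
    linarith
  have h4 : (b 0) ^ 2 + (b 1) ^ 2 = (a 0) ^ 2 + (a 1) ^ 2 := by
    rw [← h1, ← h2, hab]
  unfold gram2
  rw [norm_sq_lift, norm_sq_lift, inner_lift_lift, h1]
  have key : (a 0 * b 1 - a 1 * b 0) ^ 2 = ((a 0) ^ 2 + (a 1) ^ 2) ^ 2 := by
    have : (a 0 * b 1 - a 1 * b 0) ^ 2 + (a 0 * b 0 + a 1 * b 1) ^ 2
        = ((a 0) ^ 2 + (a 1) ^ 2) * ((b 0) ^ 2 + (b 1) ^ 2) := by ring
    rw [h3, h4] at this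
    nlinarith [this]
  have : ((a 0) ^ 2 + h ^ 2 * (a 1) ^ 2) * ((b 0) ^ 2 + h ^ 2 * (b 1) ^ 2)
      - (a 0 * b 0 + h ^ 2 * (a 1 * b 1)) ^ 2 = h ^ 2 * (a 0 * b 1 - a 1 * b 0) ^ 2 := by ring
  rw [this, key]
  ring

theorem projAlong_add (n x y : E3) : projAlong n (x + y) = projAlong n x + projAlong n y := by
  unfold projAlong
  rw [inner_add_left, add_div, add_smul]
  abel

theorem projAlong_smul (n : E3) (c : ℝ) (y : E3) : projAlong n (c • y) = c • projAlong n y := by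
  unfold projAlong
  rw [inner_smul_left, smul_sub, smul_smul]
  simp [mul_div_assoc]

theorem isCompact_pgram (c a b : E3) : IsCompact (pgram c a b) := by
  have : pgram c a b = (fun st : ℝ × ℝ => c + st.1 • a + st.2 • b) ''
      (Set.Icc (0 : ℝ) 1 ×ˢ Set.Icc (0 : ℝ) 1) := by
    ext x
    simp only [pgram, Set.mem_setOf_eq, Set.mem_image, Set.mem_prod, Prod.exists]
    constructor
    · rintro ⟨s, hs, t, ht, rfl⟩
      exact ⟨s, t, ⟨hs, ht⟩, rfl⟩
    · rintro ⟨s, t, ⟨hs, ht⟩, rfl⟩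
      exact ⟨s, hs, t, ht, rfl⟩
  rw [this]
  apply IsCompact.image (isCompact_Icc.prod isCompact_Icc)
  fun_prop

/-- area of the projected lifted square -/
theorem area_base (h : ℝ) (hh : 0 < h) (c a b g : E2) (hab : ‖b‖ = ‖a‖) (hperp : inner ℝ a b = 0) :
    (μHE[2] (pgram (projAlong (axis h g) (lift h c)) (projAlong (axis h g) (lift h a))
      (projAlong (axis h g) (lift h b)))).toReal =
      h * (‖a‖ ^ 2 / Real.sqrt (1 + (g 0) ^ 2 + h ^ 2 * (g 1) ^ 2)) := by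
  have hpos : 0 < 1 + (g 0) ^ 2 + h ^ 2 * (g 1) ^ 2 := by positivity
  rw [area_pgram, axis_eq, gram2_projAlong ex (lift h g) _ _ norm_ex (inner_lift_ex h g)
    (inner_lift_ex h a) (inner_lift_ex h b), gram2_lift h a b hab hperp, norm_sq_lift,
    ENNReal.toReal_ofReal (Real.sqrt_nonneg _), Real.sqrt_div (sq_nonneg _),
    Real.sqrt_sq (by positivity), ← add_assoc]
  ring

end Crest.Agent.S0329Aux
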